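/-
S0453 (row 299), WP-F: the JOHNSON LEMMA (abstract form), helper92.

`K = D.powersetCard s` (the vertex set of the Johnson graph `J(t,s)`, `t = #D`).  For a pair `c ≠ d`
in `D` let `χ_cd = 1[exactly one of c, d lies in X]`.  Then

  ∑_{cd} Cov_K(φ, χ_cd)² / π_cd  ≤  ((t-2)/(2t)) · (1/|K|) ∑_{Johnson edges} (dφ)² .

Everything is stated with plain sums (no probabilities): with `N = |K|`, `S = ∑_K φ`,
`Scd = ∑_{K, split} φ`, `Ncd = #{X ∈ K : split}` one has `N² Cov = N·Scd - Ncd·S`, `π = Ncd / N`.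
Both sides are summed over ORDERED pairs / ordered edges.
-/
import Mathlib

set_option autoImplicit false

namespace Crest.Agent.Helper92.S0453

open Finset

variable {α : Type*} [DecidableEq α]

/-! ### The transposition action on finsets -/

/-- Image of `X` under the transposition `(c z)`. -/
def sw (c z : α) (X : Finset α) : Finset α := X.map (Equiv.swap c z).toEmbedding

theorem mem_sw {c z a : α} {X : Finset α} : a ∈ sw c z X ↔ Equiv.swap c z a ∈ X := by
  unfold sw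
  rw [Finset.mem_map_equiv, Equiv.symm_swap]

theorem sw_comm (c z : α) (X : Finset α) : sw c z X = sw z c X := by
  unfold sw; rw [Equiv.swap_comm]

theorem left_mem_sw {c z : α} {X : Finset α} : c ∈ sw c z X ↔ z ∈ X := by
  rw [mem_sw, Equiv.swap_apply_left]

theorem right_mem_sw {c z : α} {X : Finset α} : z ∈ sw c z X ↔ c ∈ X := by
  rw [mem_sw, Equiv.swap_apply_right]

theorem other_mem_sw {c z d : α} {X : Finset α} (h1 : d ≠ c) (h2 : d ≠ z) :
    d ∈ sw c z X ↔ d ∈ X := by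
  rw [mem_sw, Equiv.swap_apply_of_ne_of_ne h1 h2]

theorem sw_sw (c z : α) (X : Finset α) : sw c z (sw c z X) = X := by
  ext a
  rw [mem_sw, mem_sw, Equiv.swap_apply_self]

theorem card_sw (c z : α) (X : Finset α) : (sw c z X).card = X.card := by
  unfold sw; exact Finset.card_map _

theorem sw_subset {c z : α} {D X : Finset α} (hc : c ∈ D) (hz : z ∈ D) (hX : X ⊆ D) :
    sw c z X ⊆ D := by
  intro a ha
  rw [mem_sw] at ha
  by_cases h1 : a = c
  · subst h1; exact hc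
  · by_cases h2 : a = z
    · subst h2; exact hz
    · rw [Equiv.swap_apply_of_ne_of_ne h1 h2] at ha
      exact hX ha

theorem sw_mem_powersetCard {c z : α} {D X : Finset α} {s : ℕ} (hc : c ∈ D) (hz : z ∈ D)
    (hX : X ∈ D.powersetCard s) : sw c z X ∈ D.powersetCard s := by
  rw [Finset.mem_powersetCard] at hX ⊢
  exact ⟨sw_subset hc hz hX.1, by rw [card_sw]; exact hX.2⟩

/-- Reindexing a sum over `D.powersetCard s` by a transposition of two elements of `D`. -/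
theorem sum_sw {c z : α} {D : Finset α} (s : ℕ) (hc : c ∈ D) (hz : z ∈ D)
    (F : Finset α → ℝ) :
    ∑ X ∈ D.powersetCard s, F (sw c z X) = ∑ X ∈ D.powersetCard s, F X := by
  refine Finset.sum_nbij' (sw c z) (sw c z) ?_ ?_ ?_ ?_ ?_
  · intro X hX; exact sw_mem_powersetCard hc hz hX
  · intro X hX; exact sw_mem_powersetCard hc hz hX
  · intro X _; exact sw_sw c z X
  · intro X _; exact sw_sw c z X
  · intro X _; rfl

theorem sw_eq_self {c z : α} {X : Finset α} (h : c ∈ X ↔ z ∈ X) : sw c z X = X := by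
  ext a
  by_cases h1 : a = c
  · subst h1; rw [left_mem_sw]; exact h.symm
  · by_cases h2 : a = z
    · subst h2; rw [right_mem_sw]; exact h
    · exact other_mem_sw h1 h2

theorem sw_eq_insert_erase {c z : α} {X : Finset α} (hc : c ∈ X) (hz : z ∉ X) :
    sw c z X = insert z (X.erase c) := by
  have hcz : c ≠ z := fun h => hz (h ▸ hc)
  ext a
  by_cases h1 : a = c
  · subst h1
    rw [left_mem_sw]
    simp [hz, hcz]
  · by_cases h2 : a = z
    · subst h2
      rw [right_mem_sw]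
      simp [hc]
    · rw [other_mem_sw h1 h2]
      simp [h1, h2]


/-! ### Split indicators -/

/-- `X` separates `c` and `d` (contains exactly one of them). -/
def Split (c d : α) (X : Finset α) : Prop := ¬ (c ∈ X ↔ d ∈ X)

instance (c d : α) : DecidablePred (Split c d) := fun X => by unfold Split; infer_instance

/-- The indicator `χ_cd` of `Split c d`. -/
def chi (c d : α) (X : Finset α) : ℝ := if Split c d X then 1 else 0

theorem chi_comm (c d : α) (X : Finset α) : chi c d X = chi d c X := by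
  unfold chi Split
  by_cases h1 : c ∈ X <;> by_cases h2 : d ∈ X <;> simp [h1, h2]

theorem chi_self (c : α) (X : Finset α) : chi c c X = 0 := by
  unfold chi Split; simp

theorem chi_eq (c d : α) (X : Finset α) :
    chi c d X = (if c ∈ X then 1 else 0) * (if d ∈ X then 0 else 1)
      + (if c ∈ X then 0 else 1) * (if d ∈ X then 1 else 0) := by
  unfold chi Split
  by_cases h1 : c ∈ X <;> by_cases h2 : d ∈ X <;> simp [h1, h2]

theorem split_sw_left {c z d : α} (h1 : d ≠ c) (h2 : d ≠ z) (X : Finset α) :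
    Split c d (sw c z X) ↔ Split z d X := by
  unfold Split
  rw [left_mem_sw, other_mem_sw h1 h2]

theorem split_sw_right {c z d : α} (h1 : d ≠ c) (h2 : d ≠ z) (X : Finset α) :
    Split z d (sw c z X) ↔ Split c d X := by
  unfold Split
  rw [right_mem_sw, other_mem_sw h1 h2]

theorem chi_sw_left {c z d : α} (h1 : d ≠ c) (h2 : d ≠ z) (X : Finset α) :
    chi c d (sw c z X) = chi z d X := by
  unfold chi
  exact if_congr (split_sw_left h1 h2 X) rfl rfl

theorem chi_sw_right {c z d : α} (h1 : d ≠ c) (h2 : d ≠ z) (X : Finset α) :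
    chi z d (sw c z X) = chi c d X := by
  unfold chi
  exact if_congr (split_sw_right h1 h2 X) rfl rfl

theorem chi_diff_sq_le {c z d : α} (X : Finset α) :
    (chi c d X - chi z d X) ^ 2 ≤ chi c z X := by
  unfold chi Split
  by_cases h1 : c ∈ X <;> by_cases h2 : d ∈ X <;> by_cases h3 : z ∈ X <;> simp [h1, h2, h3]

/-! ### The quantities -/

/-- `N = |K|`. -/
def Nk (D : Finset α) (s : ℕ) : ℝ := ((D.powersetCard s).card : ℝ)

/-- `N_cd = #{X ∈ K : X splits c, d}`. -/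
def Ncd (D : Finset α) (s : ℕ) (c d : α) : ℝ :=
  (((D.powersetCard s).filter (Split c d)).card : ℝ)

/-- `S = ∑_K φ`. -/
def Ssum (D : Finset α) (s : ℕ) (φ : Finset α → ℝ) : ℝ := ∑ X ∈ D.powersetCard s, φ X

/-- `S_cd = ∑_{X ∈ K, split} φ`. -/
def Scd (D : Finset α) (s : ℕ) (φ : Finset α → ℝ) (c d : α) : ℝ :=
  ∑ X ∈ (D.powersetCard s).filter (Split c d), φ X

/-- `κ_cd = N·S_cd - N_cd·S = N² Cov_K(φ, χ_cd)`. -/
def kap (D : Finset α) (s : ℕ) (φ : Finset α → ℝ) (c d : α) : ℝ :=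
  Nk D s * Scd D s φ c d - Ncd D s c d * Ssum D s φ

/-- Twice the (unnormalised) Johnson Dirichlet form: sum over ordered edges `X → X - c + d`. -/
def E2 (D : Finset α) (s : ℕ) (φ : Finset α → ℝ) : ℝ :=
  ∑ X ∈ D.powersetCard s, ∑ c ∈ X, ∑ d ∈ D \ X, (φ X - φ (insert d (X.erase c))) ^ 2

/-- `ε_cz = ∑_K (φ - φ∘τ_cz)²`. -/
def eps (D : Finset α) (s : ℕ) (φ : Finset α → ℝ) (c z : α) : ℝ :=
  ∑ X ∈ D.powersetCard s, (φ X - φ (sw c z X)) ^ 2

theorem Ncd_eq_sum (D : Finset α) (s : ℕ) (c d : α) :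
    Ncd D s c d = ∑ X ∈ D.powersetCard s, chi c d X := by
  unfold Ncd chi
  rw [Finset.sum_boole]

theorem Scd_eq_sum (D : Finset α) (s : ℕ) (φ : Finset α → ℝ) (c d : α) :
    Scd D s φ c d = ∑ X ∈ D.powersetCard s, chi c d X * φ X := by
  unfold Scd chi
  rw [Finset.sum_filter]
  refine Finset.sum_congr rfl fun X _ => ?_
  split_ifs <;> simp

theorem Ncd_comm (D : Finset α) (s : ℕ) (c d : α) : Ncd D s c d = Ncd D s d c := by
  rw [Ncd_eq_sum, Ncd_eq_sum]
  exact Finset.sum_congr rfl fun X _ => chi_comm c d X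

theorem Scd_comm (D : Finset α) (s : ℕ) (φ : Finset α → ℝ) (c d : α) :
    Scd D s φ c d = Scd D s φ d c := by
  rw [Scd_eq_sum, Scd_eq_sum]
  exact Finset.sum_congr rfl fun X _ => by rw [chi_comm c d X]

theorem kap_comm (D : Finset α) (s : ℕ) (φ : Finset α → ℝ) (c d : α) :
    kap D s φ c d = kap D s φ d c := by
  unfold kap
  rw [Scd_comm D s φ c d, Ncd_comm D s c d]

theorem Ncd_nonneg (D : Finset α) (s : ℕ) (c d : α) : 0 ≤ Ncd D s c d := by
  unfold Ncd; positivity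

theorem eps_nonneg (D : Finset α) (s : ℕ) (φ : Finset α → ℝ) (c z : α) : 0 ≤ eps D s φ c z := by
  unfold eps; positivity

theorem E2_nonneg (D : Finset α) (s : ℕ) (φ : Finset α → ℝ) : 0 ≤ E2 D s φ := by
  unfold E2; positivity

/-! ### Step (a): the `κ_cd` sum to zero -/

theorem sum_chi_pairs {D X : Finset α} (hX : X ⊆ D) :
    ∑ c ∈ D, ∑ d ∈ D.erase c, chi c d X = 2 * (X.card : ℝ) * ((D \ X).card : ℝ) := by
  have h1 : ∀ c ∈ D, ∑ d ∈ D.erase c, chi c d X = ∑ d ∈ D, chi c d X := by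
    intro c hc
    rw [Finset.sum_erase_eq_sub hc, chi_self, sub_zero]
  rw [Finset.sum_congr rfl h1]
  have hA : ∑ c ∈ D, (if c ∈ X then (1:ℝ) else 0) = (X.card : ℝ) := by
    rw [Finset.sum_boole]
    congr 2
    ext a; simp only [Finset.mem_filter]; exact ⟨fun h => h.2, fun h => ⟨hX h, h⟩⟩
  have hB : ∑ c ∈ D, (if c ∈ X then (0:ℝ) else 1) = ((D \ X).card : ℝ) := by
    have : ∀ c ∈ D, (if c ∈ X then (0:ℝ) else 1) = (if c ∉ X then (1:ℝ) else 0) := by
      intro c _; by_cases h : c ∈ X <;> simp [h]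
    rw [Finset.sum_congr rfl this, Finset.sum_boole]
    congr 2
    ext a; simp [Finset.mem_sdiff]
  simp_rw [chi_eq, Finset.sum_add_distrib, ← Finset.mul_sum, ← Finset.sum_mul]
  rw [hA, hB]; ring

theorem sum_kap_eq_zero (D : Finset α) (s : ℕ) (φ : Finset α → ℝ) :
    ∑ c ∈ D, ∑ d ∈ D.erase c, kap D s φ c d = 0 := by
  have hm : ∀ X ∈ D.powersetCard s,
      ∑ c ∈ D, ∑ d ∈ D.erase c, chi c d X = 2 * (s : ℝ) * ((D.card : ℝ) - s) := by
    intro X hX
    rw [Finset.mem_powersetCard] at hX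
    rw [sum_chi_pairs hX.1, Finset.card_sdiff_of_subset hX.1, hX.2,
      Nat.cast_sub (hX.2 ▸ Finset.card_le_card hX.1)]
  have hS : ∑ c ∈ D, ∑ d ∈ D.erase c, Scd D s φ c d
      = 2 * (s : ℝ) * ((D.card : ℝ) - s) * Ssum D s φ := by
    simp_rw [Scd_eq_sum]
    rw [Finset.sum_congr rfl fun c _ => Finset.sum_comm, Finset.sum_comm]
    unfold Ssum
    rw [Finset.mul_sum]
    refine Finset.sum_congr rfl fun X hX => ?_
    simp_rw [← Finset.sum_mul]
    rw [hm X hX]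
  have hN : ∑ c ∈ D, ∑ d ∈ D.erase c, Ncd D s c d
      = 2 * (s : ℝ) * ((D.card : ℝ) - s) * Nk D s := by
    simp_rw [Ncd_eq_sum]
    rw [Finset.sum_congr rfl fun c _ => Finset.sum_comm, Finset.sum_comm]
    rw [Finset.sum_congr rfl hm]
    unfold Nk
    rw [Finset.sum_const, nsmul_eq_mul]; ring
  unfold kap
  simp_rw [Finset.sum_sub_distrib, ← Finset.mul_sum, ← Finset.sum_mul]
  rw [hS, hN]; ring

/-! ### Step (b): the exchangeable pair -/

theorem Ncd_sw {D : Finset α} (s : ℕ) {c z d : α} (hc : c ∈ D) (hz : z ∈ D)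
    (h1 : d ≠ c) (h2 : d ≠ z) : Ncd D s c d = Ncd D s z d := by
  rw [Ncd_eq_sum, Ncd_eq_sum, ← sum_sw s hc hz (fun X => chi c d X)]
  exact Finset.sum_congr rfl fun X _ => chi_sw_left h1 h2 X

theorem two_mul_Scd_sub {D : Finset α} (s : ℕ) (φ : Finset α → ℝ) {c z d : α} (hc : c ∈ D)
    (hz : z ∈ D) (h1 : d ≠ c) (h2 : d ≠ z) :
    2 * (Scd D s φ c d - Scd D s φ z d)
      = ∑ X ∈ D.powersetCard s, (φ X - φ (sw c z X)) * (chi c d X - chi z d X) := by
  have e1 : Scd D s φ c d = ∑ X ∈ D.powersetCard s, chi z d X * φ (sw c z X) := by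
    rw [Scd_eq_sum, ← sum_sw s hc hz (fun X => chi c d X * φ X)]
    exact Finset.sum_congr rfl fun X _ => by rw [chi_sw_left h1 h2]
  have e2 : Scd D s φ z d = ∑ X ∈ D.powersetCard s, chi c d X * φ (sw c z X) := by
    rw [Scd_eq_sum, ← sum_sw s hc hz (fun X => chi z d X * φ X)]
    exact Finset.sum_congr rfl fun X _ => by rw [chi_sw_right h1 h2]
  have e3 := Scd_eq_sum D s φ c d
  have e4 := Scd_eq_sum D s φ z d
  have : ∑ X ∈ D.powersetCard s, (φ X - φ (sw c z X)) * (chi c d X - chi z d X)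
      = (∑ X ∈ D.powersetCard s, chi c d X * φ X) - (∑ X ∈ D.powersetCard s, chi z d X * φ X)
        - (∑ X ∈ D.powersetCard s, chi c d X * φ (sw c z X))
        + (∑ X ∈ D.powersetCard s, chi z d X * φ (sw c z X)) := by
    rw [← Finset.sum_sub_distrib, ← Finset.sum_sub_distrib, ← Finset.sum_add_distrib]
    exact Finset.sum_congr rfl fun X _ => by ring
  rw [this, ← e1, ← e2, ← e3, ← e4]; ring

theorem kap_diff_sq_le {D : Finset α} (s : ℕ) (φ : Finset α → ℝ) {c z d : α} (hc : c ∈ D)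
    (hz : z ∈ D) (h1 : d ≠ c) (h2 : d ≠ z) :
    (kap D s φ c d - kap D s φ z d) ^ 2 ≤ Nk D s ^ 2 * Ncd D s c z * eps D s φ c z / 4 := by
  have hk : kap D s φ c d - kap D s φ z d = Nk D s * (Scd D s φ c d - Scd D s φ z d) := by
    unfold kap; rw [Ncd_sw s hc hz h1 h2]; ring
  have hCS := Finset.sum_mul_sq_le_sq_mul_sq (D.powersetCard s)
    (fun X => φ X - φ (sw c z X)) (fun X => chi c d X - chi z d X)
  rw [← two_mul_Scd_sub s φ hc hz h1 h2] at hCS
  have hchi : ∑ X ∈ D.powersetCard s, (chi c d X - chi z d X) ^ 2 ≤ Ncd D s c z := by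
    rw [Ncd_eq_sum]
    exact Finset.sum_le_sum fun X _ => chi_diff_sq_le X
  have heps : ∑ X ∈ D.powersetCard s, (φ X - φ (sw c z X)) ^ 2 = eps D s φ c z := rfl
  rw [heps] at hCS
  have h4 : (2 * (Scd D s φ c d - Scd D s φ z d)) ^ 2 ≤ eps D s φ c z * Ncd D s c z :=
    hCS.trans (mul_le_mul_of_nonneg_left hchi (eps_nonneg D s φ c z))
  rw [hk]
  have hN : 0 ≤ Nk D s ^ 2 := sq_nonneg _
  nlinarith [mul_le_mul_of_nonneg_left h4 hN]


/-! ### Step (c): Poincaré inequality on pairs (triangular graph), by Cauchy–Schwarz only -/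

theorem sum_sq_diff_erase (P : Finset α) (a : α → ℝ) :
    ∑ c ∈ P, ∑ z ∈ P.erase c, (a c - a z) ^ 2
      = 2 * (P.card : ℝ) * ∑ c ∈ P, a c ^ 2 - 2 * (∑ c ∈ P, a c) ^ 2 := by
  have h1 : ∀ c ∈ P, ∑ z ∈ P.erase c, (a c - a z) ^ 2 = ∑ z ∈ P, (a c - a z) ^ 2 := by
    intro c hc
    rw [Finset.sum_erase_eq_sub hc]; ring
  rw [Finset.sum_congr rfl h1]
  have h2 : ∀ c ∈ P, ∑ z ∈ P, (a c - a z) ^ 2
      = (P.card : ℝ) * a c ^ 2 - 2 * a c * (∑ z ∈ P, a z) + ∑ z ∈ P, a z ^ 2 := by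
    intro c _
    have : ∀ z ∈ P, (a c - a z) ^ 2 = a c ^ 2 - 2 * a c * a z + a z ^ 2 := fun z _ => by ring
    rw [Finset.sum_congr rfl this, Finset.sum_add_distrib, Finset.sum_sub_distrib,
      Finset.sum_const, nsmul_eq_mul, ← Finset.mul_sum]
  rw [Finset.sum_congr rfl h2, Finset.sum_add_distrib, Finset.sum_sub_distrib,
    ← Finset.mul_sum, ← Finset.sum_mul, ← Finset.mul_sum, Finset.sum_const, nsmul_eq_mul]
  ring

/-- Swapping the two summation variables of a sum over ordered pairs of distinct elements. -/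
theorem sum_offdiag_comm (D : Finset α) (F : α → α → ℝ) :
    ∑ d ∈ D, ∑ c ∈ D.erase d, F c d = ∑ c ∈ D, ∑ d ∈ D.erase c, F c d := by
  refine Finset.sum_comm' ?_
  intro d c
  simp only [Finset.mem_erase]
  constructor
  · rintro ⟨hd, hcd, hc⟩; exact ⟨⟨fun h => hcd h.symm, hd⟩, hc⟩
  · rintro ⟨⟨hdc, hd⟩, hc⟩; exact ⟨hd, fun h => hdc h.symm, hc⟩

theorem pairs_poincare (D : Finset α) (κ : α → α → ℝ) (hsymm : ∀ c d, κ c d = κ d c)
    (hsum : ∑ d ∈ D, ∑ c ∈ D.erase d, κ c d = 0) (ht : 2 ≤ D.card) :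
    (D.card : ℝ) * ∑ d ∈ D, ∑ c ∈ D.erase d, κ c d ^ 2
      ≤ ∑ d ∈ D, ∑ c ∈ D.erase d, ∑ z ∈ (D.erase d).erase c, (κ c d - κ z d) ^ 2 := by
  set sd : α → ℝ := fun d => ∑ c ∈ D.erase d, κ c d with hsd
  set Q : ℝ := ∑ d ∈ D, ∑ c ∈ D.erase d, κ c d ^ 2 with hQ
  set X : ℝ := ∑ d ∈ D, sd d ^ 2 with hX
  have ht' : (2:ℝ) ≤ (D.card : ℝ) := by exact_mod_cast ht
  have hQ0 : 0 ≤ Q := by rw [hQ]; positivity
  have hX0 : 0 ≤ X := by rw [hX]; positivity
  have hsd0 : ∑ d ∈ D, sd d = 0 := hsum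
  -- the right-hand side
  have hR : ∑ d ∈ D, ∑ c ∈ D.erase d, ∑ z ∈ (D.erase d).erase c, (κ c d - κ z d) ^ 2
      = 2 * ((D.card : ℝ) - 1) * Q - 2 * X := by
    have : ∀ d ∈ D, ∑ c ∈ D.erase d, ∑ z ∈ (D.erase d).erase c, (κ c d - κ z d) ^ 2
        = 2 * ((D.card : ℝ) - 1) * ∑ c ∈ D.erase d, κ c d ^ 2 - 2 * sd d ^ 2 := by
      intro d hd
      rw [sum_sq_diff_erase (D.erase d) (fun c => κ c d), Finset.card_erase_of_mem hd,
        Nat.cast_sub (by omega : 1 ≤ D.card)]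
      simp [hsd]
    rw [Finset.sum_congr rfl this, Finset.sum_sub_distrib, ← Finset.mul_sum, ← Finset.mul_sum]
  -- 2X as a sum over ordered pairs
  have h2X : ∑ d ∈ D, ∑ c ∈ D.erase d, κ c d * (sd c + sd d) = 2 * X := by
    have e1 : ∑ d ∈ D, ∑ c ∈ D.erase d, κ c d * sd d = X := by
      rw [hX]
      refine Finset.sum_congr rfl fun d _ => ?_
      rw [← Finset.sum_mul, sq]
    have e2 : ∑ d ∈ D, ∑ c ∈ D.erase d, κ c d * sd c = X := by
      rw [sum_offdiag_comm D (fun c d => κ c d * sd c), hX]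
      refine Finset.sum_congr rfl fun c _ => ?_
      rw [← Finset.sum_mul, sq]
      congr 1
      exact Finset.sum_congr rfl fun d _ => hsymm c d
    have : ∀ d ∈ D, ∑ c ∈ D.erase d, κ c d * (sd c + sd d)
        = ∑ c ∈ D.erase d, κ c d * sd c + ∑ c ∈ D.erase d, κ c d * sd d := by
      intro d _
      rw [← Finset.sum_add_distrib]
      exact Finset.sum_congr rfl fun c _ => by ring
    rw [Finset.sum_congr rfl this, Finset.sum_add_distrib, e1, e2]; ring
  -- sum of (s_c + s_d)^2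
  have hss : ∑ d ∈ D, ∑ c ∈ D.erase d, (sd c + sd d) ^ 2 = (2 * (D.card : ℝ) - 4) * X := by
    have : ∀ d ∈ D, ∑ c ∈ D.erase d, (sd c + sd d) ^ 2
        = X + ((D.card : ℝ) - 4) * sd d ^ 2 := by
      intro d hd
      rw [Finset.sum_erase_eq_sub hd]
      have : ∀ c ∈ D, (sd c + sd d) ^ 2 = sd c ^ 2 + 2 * sd d * sd c + sd d ^ 2 :=
        fun c _ => by ring
      rw [Finset.sum_congr rfl this, Finset.sum_add_distrib, Finset.sum_add_distrib,
        ← Finset.mul_sum, hsd0, Finset.sum_const, nsmul_eq_mul, ← hX]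
      ring
    rw [Finset.sum_congr rfl this, Finset.sum_add_distrib, Finset.sum_const, nsmul_eq_mul,
      ← Finset.mul_sum, ← hX]
    ring
  -- Cauchy–Schwarz over the sigma finset of ordered pairs
  have hCS := Finset.sum_mul_sq_le_sq_mul_sq (D.sigma fun d => D.erase d)
    (fun x => κ x.2 x.1) (fun x => sd x.2 + sd x.1)
  rw [← Finset.sum_sigma' D (fun d => D.erase d) (fun d c => κ c d * (sd c + sd d)),
    ← Finset.sum_sigma' D (fun d => D.erase d) (fun d c => κ c d ^ 2),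
    ← Finset.sum_sigma' D (fun d => D.erase d) (fun d c => (sd c + sd d) ^ 2),
    h2X, hss, ← hQ] at hCS
  -- conclude
  have hclaim : 2 * X ≤ ((D.card : ℝ) - 2) * Q := by
    by_contra hcon
    rw [not_le] at hcon
    have hpos : 0 ≤ ((D.card : ℝ) - 2) * Q := mul_nonneg (by linarith) hQ0
    have hXpos : 0 < X := by linarith
    nlinarith [mul_lt_mul_of_pos_right hcon hXpos]
  rw [hR]
  nlinarith


/-! ### Step (d): assembly -/

/-- `N_cd` does not depend on the pair. -/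
theorem Ncd_const {D : Finset α} (s : ℕ) {c d c' d' : α} (hc : c ∈ D) (hd : d ∈ D)
    (hc' : c' ∈ D) (hd' : d' ∈ D) (hcd : c ≠ d) (hcd' : c' ≠ d') :
    Ncd D s c d = Ncd D s c' d' := by
  by_cases h : d = c'
  · subst h
    -- Ncd c d = Ncd d c = (first arg c → d', parameter d) ...
    calc Ncd D s c d = Ncd D s d' d := Ncd_sw s hc hd' hcd.symm hcd'
      _ = Ncd D s d d' := Ncd_comm D s d' d
  · calc Ncd D s c d = Ncd D s c' d := Ncd_sw s hc hc' hcd.symm h
      _ = Ncd D s d c' := Ncd_comm D s c' d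
      _ = Ncd D s d' c' := Ncd_sw s hd hd' (Ne.symm h) hcd'
      _ = Ncd D s c' d' := Ncd_comm D s d' c'

theorem sum_triple_reorder (D : Finset α) (F : α → α → ℝ) :
    ∑ d ∈ D, ∑ c ∈ D.erase d, ∑ z ∈ (D.erase d).erase c, F c z
      = ((D.card : ℝ) - 2) * ∑ c ∈ D, ∑ z ∈ D.erase c, F c z := by
  rw [sum_offdiag_comm D (fun c d => ∑ z ∈ (D.erase d).erase c, F c z), Finset.mul_sum]
  refine Finset.sum_congr rfl fun c hc => ?_
  have hcomm : ∑ d ∈ D.erase c, ∑ z ∈ (D.erase d).erase c, F c z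
      = ∑ z ∈ D.erase c, ∑ d ∈ (D.erase c).erase z, F c z := by
    refine Finset.sum_comm' ?_
    intro d z
    simp only [Finset.mem_erase]
    constructor
    · rintro ⟨⟨hdc, hd⟩, hzc, hzd, hz⟩; exact ⟨⟨fun h => hzd h.symm, hdc, hd⟩, hzc, hz⟩
    · rintro ⟨⟨hdz, hdc, hd⟩, hzc, hz⟩; exact ⟨⟨hdc, hd⟩, hzc, fun h => hdz h.symm, hz⟩
  rw [hcomm, Finset.mul_sum]
  refine Finset.sum_congr rfl fun z hz => ?_
  rw [Finset.sum_const, nsmul_eq_mul, Finset.card_erase_of_mem hz, Finset.card_erase_of_mem hc]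
  have h2 : 2 ≤ D.card := by
    have := Finset.card_pos.mpr ⟨z, hz⟩
    rw [Finset.card_erase_of_mem hc] at this
    omega
  rw [Nat.sub_sub, Nat.cast_sub h2]
  norm_num

theorem sum_eps_eq (D : Finset α) (s : ℕ) (φ : Finset α → ℝ) :
    ∑ c ∈ D, ∑ z ∈ D.erase c, eps D s φ c z = 2 * E2 D s φ := by
  unfold eps E2
  rw [Finset.sum_congr rfl fun c _ => Finset.sum_comm, Finset.sum_comm, Finset.mul_sum]
  refine Finset.sum_congr rfl fun X hX => ?_
  rw [Finset.mem_powersetCard] at hX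
  have hXD := hX.1
  rw [← Finset.sum_sdiff hXD]
  have hin : ∀ c ∈ X, ∑ z ∈ D.erase c, (φ X - φ (sw c z X)) ^ 2
      = ∑ z ∈ D \ X, (φ X - φ (insert z (X.erase c))) ^ 2 := by
    intro c hc
    have hsub : D \ X ⊆ D.erase c := by
      intro z hz
      rw [Finset.mem_sdiff] at hz
      rw [Finset.mem_erase]
      exact ⟨fun h => hz.2 (h ▸ hc), hz.1⟩
    rw [← Finset.sum_subset hsub]
    · refine Finset.sum_congr rfl fun z hz => ?_
      rw [Finset.mem_sdiff] at hz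
      rw [sw_eq_insert_erase hc hz.2]
    · intro z hz hz'
      rw [Finset.mem_erase] at hz
      have hzX : z ∈ X := by
        by_contra h; exact hz' (Finset.mem_sdiff.mpr ⟨hz.2, h⟩)
      rw [sw_eq_self (iff_of_true hc hzX)]; simp
  have hout : ∀ c ∈ D \ X, ∑ z ∈ D.erase c, (φ X - φ (sw c z X)) ^ 2
      = ∑ z ∈ X, (φ X - φ (insert c (X.erase z))) ^ 2 := by
    intro c hc
    rw [Finset.mem_sdiff] at hc
    have hsub : X ⊆ D.erase c := by
      intro z hz
      rw [Finset.mem_erase]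
      exact ⟨fun h => hc.2 (h ▸ hz), hXD hz⟩
    rw [← Finset.sum_subset hsub]
    · refine Finset.sum_congr rfl fun z hz => ?_
      rw [sw_comm, sw_eq_insert_erase hz hc.2]
    · intro z _ hz'
      rw [sw_eq_self (iff_of_false hc.2 hz')]; simp
  rw [Finset.sum_congr rfl hin, Finset.sum_congr rfl hout, Finset.sum_comm]
  ring

/-- **Johnson lemma** (sum form, ordered pairs and ordered edges):
`∑_{c ≠ d} κ_cd² / N_cd ≤ ((t-2)/(2t)) · N² · E2`, i.e.
`∑_{cd} Cov_K(φ,χ_cd)²/π_cd ≤ ((t-2)/(2t)) · (1/|K|) ∑_{edges} (dφ)²`. -/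
theorem johnson_lemma (D : Finset α) (s : ℕ) (φ : Finset α → ℝ) (ht : 2 ≤ D.card) :
    ∑ c ∈ D, ∑ d ∈ D.erase c, kap D s φ c d ^ 2 / Ncd D s c d
      ≤ (((D.card : ℝ) - 2) / (2 * (D.card : ℝ))) * Nk D s ^ 2 * E2 D s φ := by
  obtain ⟨c₀, hc₀, d₀, hd₀, hne₀⟩ := Finset.one_lt_card.mp (by omega : 1 < D.card)
  set ν : ℝ := Ncd D s c₀ d₀ with hν
  have hνc : ∀ c ∈ D, ∀ d ∈ D.erase c, Ncd D s c d = ν := by
    intro c hc d hd
    rw [Finset.mem_erase] at hd
    exact Ncd_const s hc hd.2 hc₀ hd₀ (Ne.symm hd.1) hne₀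
  have ht' : (2:ℝ) ≤ (D.card : ℝ) := by exact_mod_cast ht
  have hE : 0 ≤ E2 D s φ := E2_nonneg D s φ
  have hRHS : 0 ≤ (((D.card : ℝ) - 2) / (2 * (D.card : ℝ))) * Nk D s ^ 2 * E2 D s φ := by
    have : 0 ≤ ((D.card : ℝ) - 2) / (2 * (D.card : ℝ)) :=
      div_nonneg (by linarith) (by linarith)
    positivity
  set Q : ℝ := ∑ d ∈ D, ∑ c ∈ D.erase d, kap D s φ c d ^ 2 with hQ
  have hLHS : ∑ c ∈ D, ∑ d ∈ D.erase c, kap D s φ c d ^ 2 / Ncd D s c d = Q / ν := by
    rw [hQ, sum_offdiag_comm D (fun c d => kap D s φ c d ^ 2), Finset.sum_div]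
    refine Finset.sum_congr rfl fun c hc => ?_
    rw [Finset.sum_div]
    exact Finset.sum_congr rfl fun d hd => by rw [hνc c hc d hd]
  rw [hLHS]
  have hν0 : 0 ≤ ν := Ncd_nonneg D s c₀ d₀
  rcases hν0.eq_or_lt with h0 | hpos
  · rw [← h0, div_zero]; exact hRHS
  -- Poincaré
  have hP := pairs_poincare D (kap D s φ) (kap_comm D s φ)
    (by rw [sum_offdiag_comm D (fun c d => kap D s φ c d)]; exact sum_kap_eq_zero D s φ) ht
  rw [← hQ] at hP
  -- termwise bound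
  have hT : ∑ d ∈ D, ∑ c ∈ D.erase d, ∑ z ∈ (D.erase d).erase c,
        (kap D s φ c d - kap D s φ z d) ^ 2
      ≤ ∑ d ∈ D, ∑ c ∈ D.erase d, ∑ z ∈ (D.erase d).erase c,
        Nk D s ^ 2 * ν / 4 * eps D s φ c z := by
    refine Finset.sum_le_sum fun d hd => Finset.sum_le_sum fun c hc => Finset.sum_le_sum
      fun z hz => ?_
    rw [Finset.mem_erase] at hc
    rw [Finset.mem_erase, Finset.mem_erase] at hz
    have := kap_diff_sq_le s φ hc.2 hz.2.2 (Ne.symm hc.1) (Ne.symm hz.2.1)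
    rw [hνc c hc.2 z (Finset.mem_erase.mpr ⟨hz.1, hz.2.2⟩)] at this
    calc (kap D s φ c d - kap D s φ z d) ^ 2 ≤ Nk D s ^ 2 * ν * eps D s φ c z / 4 := this
      _ = Nk D s ^ 2 * ν / 4 * eps D s φ c z := by ring
  have hT2 : ∑ d ∈ D, ∑ c ∈ D.erase d, ∑ z ∈ (D.erase d).erase c,
        Nk D s ^ 2 * ν / 4 * eps D s φ c z
      = ((D.card : ℝ) - 2) * (Nk D s ^ 2 * ν / 4 * (2 * E2 D s φ)) := by
    rw [sum_triple_reorder D (fun c z => Nk D s ^ 2 * ν / 4 * eps D s φ c z)]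
    congr 1
    rw [← sum_eps_eq, Finset.mul_sum]
    exact Finset.sum_congr rfl fun c _ => by rw [Finset.mul_sum]
  have hmain : (D.card : ℝ) * Q ≤ ((D.card : ℝ) - 2) * (Nk D s ^ 2 * ν / 4 * (2 * E2 D s φ)) :=
    hP.trans (hT.trans hT2.le)
  have htpos : (0:ℝ) < (D.card : ℝ) := by linarith
  rw [div_le_iff₀ hpos]
  have : Q ≤ ((D.card : ℝ) - 2) * (Nk D s ^ 2 * ν / 4 * (2 * E2 D s φ)) / (D.card : ℝ) := by
    rw [le_div_iff₀ htpos]; linarith
  calc Q ≤ ((D.card : ℝ) - 2) * (Nk D s ^ 2 * ν / 4 * (2 * E2 D s φ)) / (D.card : ℝ) := this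
    _ = (((D.card : ℝ) - 2) / (2 * (D.card : ℝ))) * Nk D s ^ 2 * E2 D s φ * ν := by
      field_simp; ring

/-- **Johnson lemma**, weak form with constant `1/2`, no hypothesis on `D`. -/
theorem johnson_lemma_half (D : Finset α) (s : ℕ) (φ : Finset α → ℝ) :
    ∑ c ∈ D, ∑ d ∈ D.erase c, kap D s φ c d ^ 2 / Ncd D s c d
      ≤ (1 / 2) * Nk D s ^ 2 * E2 D s φ := by
  have hE : 0 ≤ E2 D s φ := E2_nonneg D s φ
  by_cases ht : 2 ≤ D.card
  · refine (johnson_lemma D s φ ht).trans ?_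
    have ht' : (2:ℝ) ≤ (D.card : ℝ) := by exact_mod_cast ht
    have h1 : ((D.card : ℝ) - 2) / (2 * (D.card : ℝ)) ≤ 1 / 2 := by
      rw [div_le_div_iff₀ (by linarith) (by norm_num)]; linarith
    have h2 : 0 ≤ Nk D s ^ 2 * E2 D s φ := by positivity
    nlinarith [mul_le_mul_of_nonneg_right h1 h2]
  · have hempty : ∀ c ∈ D, D.erase c = ∅ := by
      intro c hc
      rw [← Finset.card_eq_zero, Finset.card_erase_of_mem hc]
      omega
    rw [Finset.sum_congr rfl fun c hc => by rw [hempty c hc, Finset.sum_empty]]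
    rw [Finset.sum_const_zero]
    positivity

end Crest.Agent.Helper92.S0453
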